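import Mathlib

/-! Finite algebras, congruence lattices and the seven element lattice. -/

namespace Vale.Agent.P183

/-- A finite algebra: a nonempty finite set with a finite list of total operations. -/
structure FinAlg where
  A : Type
  fin : Finite A
  ne : Nonempty A
  n : ℕ
  ar : Fin n → ℕ
  op : ∀ i : Fin n, (Fin (ar i) → A) → A

/-- Congruences: equivalence relations compatible with every operation, ordered by inclusion. -/
abbrev FinAlg.Con (B : FinAlg) : Type :=
  {r : Setoid B.A // ∀ (i : Fin B.n) (x y : Fin (B.ar i) → B.A),
    (∀ j, r (x j) (y j)) → r (B.op i x) (B.op i y)}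

/-- The seven sets, ordered by inclusion: the grid `2 × 3` (the sets not equal to `{3}`) and
the extra element `{3}`, which is both an atom and a coatom. -/
abbrev L7 : Type :=
  {S : Finset (Fin 4) // S = ∅ ∨ S = {0} ∨ S = {1} ∨ S = {0, 1} ∨ S = {1, 2} ∨ S = {3} ∨
    S = {0, 1, 2, 3}}

end Vale.Agent.P183
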