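import Vale.Agent.P183.Grp
import Vale.Agent.P183.Defs

/-! The overgroups of the small special linear group. -/

namespace Vale.Agent.P183

def W (m : ℕ) (v : K × K) : Prop := sb (cl (enc v)) m = true

def Ls (m : ℕ) : Prop := m = 0 ∨ m = 1 ∨ m = 2 ∨ m = 3 ∨ m = 6 ∨ m = 8 ∨ m = 15

theorem cl_Ls {n : ℕ} (h : n < 4096) : Ls (cl n) := by
  have := al2_spec ck_cl n h
  simp only [Bool.or_eq_true, Nat.beq_eq] at this
  unfold Ls
  tauto

theorem sb_trans {i j m : ℕ} (h1 : sb i j = true) (h2 : sb j m = true) : sb i m = true := by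
  have a : i &&& j = i := Nat.eq_of_beq_eq_true h1
  have b : j &&& m = j := Nat.eq_of_beq_eq_true h2
  have c : i &&& m = i := by rw [← a, Nat.and_assoc, b]
  exact Nat.beq_eq.mpr c

theorem W_top (v : K × K) : W 15 v := by
  unfold W
  rcases cl_Ls (enc_lt v) with h | h | h | h | h | h | h <;> rw [h] <;> rfl

theorem W_of_zero {v : K × K} (h : cl (enc v) = 0) (m : ℕ) : W m v := by
  unfold W
  rw [h]
  exact Nat.beq_eq.mpr (Nat.zero_and m)

theorem cl_e1 : cl (enc (1, 0)) = 0 := by decide +kernel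
theorem cl_e2 : cl (enc (0, 1)) = 0 := by decide +kernel
theorem cl_e0 : cl (enc (0, 0)) = 0 := by decide +kernel

theorem W_clo {m : ℕ} (hm : Ls m) {v y : K × K} (hv : W m v) (hy : W m y) :
    W m (act (tv v) y) := by
  have key : ckClo m = true → W m (act (tv v) y) := fun h => by
    have h1 := al2_spec h _ (enc_lt v)
    rw [show sb (cl (enc v)) m = true from hv, Bool.not_true, Bool.false_or] at h1
    have h2 := al2_spec h1 _ (enc_lt y)
    rw [show sb (cl (enc y)) m = true from hy, sv_enc] at h2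
    exact h2
  have h := ck_clo
  simp only [Bool.and_eq_true] at h
  rcases hm with rfl | rfl | rfl | rfl | rfl | rfl | rfl
  exacts [key h.1.1.1.1.1, key h.1.1.1.1.2, key h.1.1.1.2, key h.1.1.2, key h.1.2, key h.2,
    W_top _]

/-- the stabiliser of a set of vectors -/
def M (m : ℕ) : Subgroup G where
  carrier := {x | ∀ v, W m (act x v) ↔ W m v}
  one_mem' v := by rw [act_one]
  mul_mem' {x y} hx hy v := by rw [act_mul, hx, hy]
  inv_mem' {x} hx v := by rw [← hx, ← act_mul, mul_inv_cancel, act_one]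

theorem tv_M {m : ℕ} (hm : Ls m) {v : K × K} : tv v ∈ M m ↔ W m v := by
  refine ⟨fun h => ?_, fun h y => ⟨fun hy => ?_, W_clo hm h⟩⟩
  · have h1 : W m _ := (h (1, 0)).2 (W_of_zero cl_e1 m)
    have h2 : W m _ := (h (0, 1)).2 (W_of_zero cl_e2 m)
    by_cases h15 : m = 15
    · exact h15 ▸ W_top v
    have h3 := al_spec (al2_spec ck_back _ (enc_lt v)) m (by unfold Ls at hm; omega)
    unfold W at h1 h2 ⊢
    rw [← sv_enc] at h1 h2
    rw [show sb (cl (sv (enc v) 64)) m = true from h1,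
      show sb (cl (sv (enc v) 1)) m = true from h2] at h3
    simp only [Bool.not_true, Bool.false_or, Bool.or_eq_true, Nat.beq_eq, Nat.ble_eq] at h3
    unfold Ls at hm
    rcases h3 with ((h3 | h3) | h3) | h3
    · exact h3
    all_goals omega
  · have := W_clo hm h hy
    rwa [tv_tv] at this

theorem M_le {m : ℕ} (hm : Ls m) {S : Subgroup G} (h : ∀ v, W m v → tv v ∈ S) : M m ≤ S := by
  intro x hx
  have hp : W m (act x (1, 0)) := (hx _).2 (W_of_zero cl_e1 m)
  set p := act x (1, 0) with hpx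
  have hp0 : enc p ≠ 0 := by
    intro h0
    have e : p = (0, 0) := by rw [← dec_enc p, h0]; rfl
    have hd := G_det x
    simp only [hpx, act, mul_one, mul_zero, add_zero, Prod.mk.injEq] at e
    rw [e.1, e.2, zero_mul, mul_zero, sub_zero] at hd
    exact absurd (congrArg K.v hd) (by decide)
  have h1 := al2_spec ck_tr _ (enc_lt p)
  simp only [Bool.or_eq_true, Nat.beq_eq, hp0, false_or, Bool.and_eq_true] at h1
  set a := dec (u1 (enc p)) with ha
  set n := u2 (sv (u1 (enc p)) (enc p)) with hn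
  have hn' : n < 4096 := by
    have a1 := mu_lt (Nat.xor (hi (sv (u1 (enc p)) (enc p))) 1)
      (lk tRs 6 (lo (sv (u1 (enc p)) (enc p))))
    have a2 := mu_lt (lo (sv (u1 (enc p)) (enc p))) (lk tRs 6 (lo (sv (u1 (enc p)) (enc p))))
    change 64 * _ + _ < 4096
    omega
  have hWa : W m a := by
    refine W_of_zero ?_ m
    rw [ha, u1]
    cases Nat.beq (lo (enc p)) 0
    · exact cl_e0
    · exact cl_e2
  have hWb : W m (dec n) := by
    unfold W
    rw [enc_dec hn']
    exact sb_trans h1.1 hp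
  set z := tv (dec n) * (tv a * x) with hz
  have hzM : z ∈ M m := mul_mem ((tv_M hm).2 hWb) (mul_mem ((tv_M hm).2 hWa) hx)
  have hz1 : act z (1, 0) = (1, 0) := by
    have := congrArg dec h1.2
    rw [dec_sv, dec_sv, dec_enc] at this
    rw [hz, act_mul, act_mul]
    exact this
  have hz2 : act z (0, 1) = (z 0 1, 1) := by
    have hd := G_det z
    simp only [act, mul_one, mul_zero, add_zero, Prod.mk.injEq] at hz1
    rw [hz1.1, hz1.2, one_mul, mul_zero, sub_zero] at hd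
    simp only [act, mul_one, mul_zero, zero_add, hd]
  have h2 := al_spec ck_sq _ (z 0 1).lt
  simp only [Bool.and_eq_true, Nat.beq_eq] at h2
  let r : K := ⟨lk tSq 6 (z 0 1).v, Nat.mod_lt _ (by decide)⟩
  have hr : r * r = z 0 1 := K.ext h2.2
  have hW : W m (z 0 1, 1) := hz2 ▸ (hzM _).2 (W_of_zero cl_e2 m)
  have hWr : W m (r, 0) := sb_trans h2.1 hW
  have e : z = tv (r, 0) := by
    refine act_ext ?_ ?_
    · rw [hz1, act_tv]
      simp
    · rw [hz2, act_tv, ← hr]
      simp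
  have : x = (tv a)⁻¹ * ((tv (dec n))⁻¹ * z) := by rw [hz]; group
  rw [this, e]
  exact mul_mem (inv_mem (h _ hWa)) (mul_mem (inv_mem (h _ hWb)) (h _ hWr))

section cls
variable {S : Subgroup G}

theorem In_sv {n m : ℕ} (hn : tv (dec n) ∈ S) (hm : tv (dec m) ∈ S) : tv (dec (sv n m)) ∈ S := by
  rw [dec_sv]
  exact tv_mem hn hm

theorem In_zero (hS : M 0 ≤ S) {n : ℕ} (hn : n < 4096) (h : cl n = 0) : tv (dec n) ∈ S :=
  hS ((tv_M (Or.inl rfl)).2 (W_of_zero (by rw [enc_dec hn, h]) 0))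

theorem In_op (hS : M 0 ≤ S) (o : ℕ) {n : ℕ} (hn : tv (dec n) ∈ S) : tv (dec (op o n)) ∈ S := by
  have h1 : tv (dec 64) ∈ S := In_zero hS (by decide) cl_e1
  have h2 : tv (dec 1) ∈ S := In_zero hS (by decide) cl_e2
  have h3 := In_sv h1 h2
  unfold op
  split
  exacts [In_sv h1 hn, In_sv h2 hn, In_sv hn h1, In_sv hn h2, In_sv hn h3, In_sv hn (In_sv h1 hn),
    In_sv hn (In_sv h2 hn), In_sv hn (In_sv h3 hn)]

theorem op_lt (o n : ℕ) : op o n < 4096 := by
  unfold op
  split <;> exact sv_lt _ _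

theorem In_up (hS : M 0 ≤ S) (r : ℕ) : ∀ n < 4096, lk tR 4 n < r → tv (dec n) ∈ S →
    tv (dec (be (cl n))) ∈ S := by
  induction r with
  | zero => intro n _ h; omega
  | succ r ih =>
    intro n hn hr h
    have h1 := al2_spec ck_up n hn
    simp only [Bool.or_eq_true, Nat.beq_eq, Bool.and_eq_true, Nat.blt_eq] at h1
    rcases h1 with (h1 | h1) | h1
    · rw [h1]
      exact In_zero hS (by decide +kernel) (by decide +kernel)
    · exact h1 ▸ h
    · rw [← h1.1]
      exact ih _ (op_lt _ _) (by omega) (In_op hS _ h)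

theorem In_dn (hS : M 0 ≤ S) (r : ℕ) : ∀ n < 4096, lk tS 4 n < r → tv (dec (be (cl n))) ∈ S →
    tv (dec n) ∈ S := by
  induction r with
  | zero => intro n _ h; omega
  | succ r ih =>
    intro n hn hr h
    have h1 := al2_spec ck_dn n hn
    simp only [Bool.or_eq_true, Nat.beq_eq, Bool.and_eq_true, Nat.blt_eq] at h1
    rcases h1 with (h1 | h1) | h1
    · exact In_zero hS hn h1
    · rw [h1]
      exact h
    · rw [← h1.1.1]
      exact In_op hS _ (ih _ (Nat.mod_lt _ (by decide)) (by omega) (h1.1.2 ▸ h))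

theorem In_iff (hS : M 0 ≤ S) {n : ℕ} (hn : n < 4096) :
    tv (dec n) ∈ S ↔ tv (dec (be (cl n))) ∈ S :=
  ⟨In_up hS _ n hn (Nat.lt_succ_self _), In_dn hS _ n hn (Nat.lt_succ_self _)⟩

theorem In_wit (hS : M 0 ≤ S) (v y : ℕ) {i j k : ℕ}
    (h : v < 4096 ∧ y < 4096 ∧ cl v = i ∧ cl y = j ∧ cl (sv v y) = k)
    (hi : tv (dec (be i)) ∈ S) (hj : tv (dec (be j)) ∈ S) : tv (dec (be k)) ∈ S := by
  obtain ⟨hv, hy, rfl, rfl, rfl⟩ := h
  exact (In_iff hS (sv_lt _ _)).1 (In_sv ((In_iff hS hv).2 hi) ((In_iff hS hy).2 hj))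

theorem key_prop (P : ℕ → Prop) (p0 : P 0) (w1 : P 1 → P 2 → P 3) (w2 : P 1 → P 6 → P 15)
    (w3 : P 1 → P 8 → P 15) (w4 : P 2 → P 8 → P 15) (w5 : P 3 → P 3 → P 1) (w6 : P 3 → P 3 → P 2)
    (w7 : P 6 → P 6 → P 2) (w8 : P 15 → P 15 → P 3) (w9 : P 15 → P 15 → P 6)
    (w10 : P 15 → P 15 → P 8) : ∃ m, Ls m ∧ ∀ i, Ls i → (P i ↔ sb i m = true) := by
  by_cases c15 : P 15
  · have := w8 c15 c15
    have := w9 c15 c15
    have := w10 c15 c15
    have := w5 (w8 c15 c15) (w8 c15 c15)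
    have := w6 (w8 c15 c15) (w8 c15 c15)
    refine ⟨15, by simp [Ls], fun i hi => ?_⟩
    rcases hi with rfl | rfl | rfl | rfl | rfl | rfl | rfl <;>
      first | exact iff_of_true ‹_› (by decide) | exact iff_of_false ‹_› (by decide)
  by_cases c3 : P 3
  · have := w5 c3 c3
    have := w6 c3 c3
    have : ¬ P 6 := fun h => c15 (w2 (w5 c3 c3) h)
    have : ¬ P 8 := fun h => c15 (w3 (w5 c3 c3) h)
    refine ⟨3, by simp [Ls], fun i hi => ?_⟩
    rcases hi with rfl | rfl | rfl | rfl | rfl | rfl | rfl <;>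
      first | exact iff_of_true ‹_› (by decide) | exact iff_of_false ‹_› (by decide)
  by_cases c6 : P 6
  · have := w7 c6 c6
    have : ¬ P 1 := fun h => c15 (w2 h c6)
    have : ¬ P 8 := fun h => c15 (w4 (w7 c6 c6) h)
    refine ⟨6, by simp [Ls], fun i hi => ?_⟩
    rcases hi with rfl | rfl | rfl | rfl | rfl | rfl | rfl <;>
      first | exact iff_of_true ‹_› (by decide) | exact iff_of_false ‹_› (by decide)
  by_cases c8 : P 8
  · have : ¬ P 1 := fun h => c15 (w3 h c8)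
    have : ¬ P 2 := fun h => c15 (w4 h c8)
    refine ⟨8, by simp [Ls], fun i hi => ?_⟩
    rcases hi with rfl | rfl | rfl | rfl | rfl | rfl | rfl <;>
      first | exact iff_of_true ‹_› (by decide) | exact iff_of_false ‹_› (by decide)
  by_cases c1 : P 1
  · have : ¬ P 2 := fun h => c3 (w1 c1 h)
    refine ⟨1, by simp [Ls], fun i hi => ?_⟩
    rcases hi with rfl | rfl | rfl | rfl | rfl | rfl | rfl <;>
      first | exact iff_of_true ‹_› (by decide) | exact iff_of_false ‹_› (by decide)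
  by_cases c2 : P 2
  · refine ⟨2, by simp [Ls], fun i hi => ?_⟩
    rcases hi with rfl | rfl | rfl | rfl | rfl | rfl | rfl <;>
      first | exact iff_of_true ‹_› (by decide) | exact iff_of_false ‹_› (by decide)
  · refine ⟨0, by simp [Ls], fun i hi => ?_⟩
    rcases hi with rfl | rfl | rfl | rfl | rfl | rfl | rfl <;>
      first | exact iff_of_true ‹_› (by decide) | exact iff_of_false ‹_› (by decide)

theorem classify (hS : M 0 ≤ S) : ∃ m, Ls m ∧ S = M m := by
  have p0 : tv (dec (be 0)) ∈ S := In_zero hS (by decide +kernel) (by decide +kernel)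
  have w1 := In_wit hS 993 919 (i := 1) (j := 2) (k := 3) (by decide +kernel)
  have w2 := In_wit hS 993 14 (i := 1) (j := 6) (k := 15) (by decide +kernel)
  have w3 := In_wit hS 993 58 (i := 1) (j := 8) (k := 15) (by decide +kernel)
  have w4 := In_wit hS 919 58 (i := 2) (j := 8) (k := 15) (by decide +kernel)
  have w5 := In_wit hS 435 437 (i := 3) (j := 3) (k := 1) (by decide +kernel)
  have w6 := In_wit hS 435 1718 (i := 3) (j := 3) (k := 2) (by decide +kernel)
  have w7 := In_wit hS 14 918 (i := 6) (j := 6) (k := 2) (by decide +kernel)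
  have w8 := In_wit hS 2 427 (i := 15) (j := 15) (k := 3) (by decide +kernel)
  have w9 := In_wit hS 2 74 (i := 15) (j := 15) (k := 6) (by decide +kernel)
  have w10 := In_wit hS 2 126 (i := 15) (j := 15) (k := 8) (by decide +kernel)
  have key := key_prop (fun i => tv (dec (be i)) ∈ S) p0 w1 w2 w3 w4 w5 w6 w7 w8 w9 w10
  obtain ⟨m, hm, h⟩ := key
  have hV : ∀ v, tv v ∈ S ↔ W m v := fun v => by
    rw [← dec_enc v, In_iff hS (enc_lt v), h _ (cl_Ls (enc_lt v)), dec_enc]
    rfl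
  refine ⟨m, hm, le_antisymm (fun x hx v => ?_) (M_le hm fun v hv => (hV v).2 hv)⟩
  rw [← hV, ← hV]
  refine ⟨fun h1 => ?_, tv_mem hx⟩
  have := tv_mem (inv_mem hx) h1
  rwa [← act_mul, inv_mul_cancel, act_one] at this

end cls

theorem M_le_iff {i j : ℕ} (hi : Ls i) (hj : Ls j) : M i ≤ M j ↔ sb i j = true := by
  refine ⟨fun h => ?_, fun h => M_le hi fun v hv => (tv_M hj).2 (sb_trans hv h)⟩
  have e : cl (enc (dec (be i))) = i := by
    rcases hi with rfl | rfl | rfl | rfl | rfl | rfl | rfl <;> decide +kernel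
  have h1 : W i (dec (be i)) := by
    unfold W
    rw [e]
    exact Nat.beq_eq.mpr (Nat.and_self i)
  have h2 := (tv_M hj).1 (h ((tv_M hi).2 h1))
  unfold W at h2
  rwa [e] at h2

def mk (S : L7) : ℕ := ∑ i ∈ S.1, 2 ^ i.val

theorem mk_Ls (S : L7) : Ls (mk S) := by
  obtain ⟨S, rfl | rfl | rfl | rfl | rfl | rfl | rfl⟩ := S <;> unfold Ls mk <;> decide

theorem mk_le (S T : L7) : sb (mk S) (mk T) = true ↔ S ≤ T := by
  obtain ⟨S, rfl | rfl | rfl | rfl | rfl | rfl | rfl⟩ := S <;>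
    obtain ⟨T, rfl | rfl | rfl | rfl | rfl | rfl | rfl⟩ := T <;>
      rw [Subtype.mk_le_mk] <;> unfold mk <;> decide

theorem mk_surj {m : ℕ} (hm : Ls m) : ∃ S, mk S = m := by
  rcases hm with rfl | rfl | rfl | rfl | rfl | rfl | rfl
  exacts [⟨⟨∅, by simp⟩, by decide⟩, ⟨⟨{0}, by simp⟩, by decide⟩, ⟨⟨{1}, by simp⟩, by decide⟩,
    ⟨⟨{0, 1}, by simp⟩, by decide⟩, ⟨⟨{1, 2}, by simp⟩, by decide⟩, ⟨⟨{3}, by simp⟩, by decide⟩,
    ⟨⟨{0, 1, 2, 3}, by simp⟩, by decide⟩]

theorem interval : Nonempty (Set.Ici (M 0) ≃o L7) := by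
  let f : L7 ↪o Set.Ici (M 0) := OrderEmbedding.ofMapLEIff
    (fun S => ⟨M (mk S), (M_le_iff (Or.inl rfl) (mk_Ls S)).2 (Nat.beq_eq.mpr (Nat.zero_and _))⟩)
    fun S T => (M_le_iff (mk_Ls S) (mk_Ls T)).trans (mk_le S T)
  refine ⟨(OrderIso.ofSurjective f fun S => ?_).symm⟩
  obtain ⟨m, hm, h⟩ := classify S.2
  obtain ⟨T, rfl⟩ := mk_surj hm
  exact ⟨T, Subtype.ext h.symm⟩

end Vale.Agent.P183
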