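import Vale.Agent.P183.Defs

/-! The congruence lattice of a coset space is an interval of the subgroup lattice. -/

namespace Vale.Agent.P183

variable {G : Type} [Group G] [Finite G] (H : Subgroup G)

noncomputable def cosetAlg : FinAlg where
  A := G ⧸ H
  fin := inferInstance
  ne := inferInstance
  n := Nat.card G
  ar := fun _ => 1
  op := fun i x => (Finite.equivFin G).symm i • x 0

theorem cosetAlg_smul (r : (cosetAlg H).Con) (g : G) {x y : G ⧸ H} (h : r.1 x y) :
    r.1 (g • x) (g • y) := by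
  have := r.2 (Finite.equivFin G g) (fun _ => x) (fun _ => y) fun _ => h
  simpa only [cosetAlg, Equiv.symm_apply_apply] using this

theorem cosetAlg_mul (r : (cosetAlg H).Con) (g : G) {x y : G}
    (h : r.1 (x : G ⧸ H) (y : G ⧸ H)) : r.1 ((g * x : G) : G ⧸ H) ((g * y : G) : G ⧸ H) :=
  cosetAlg_smul H r g h

def conSub (r : (cosetAlg H).Con) : Subgroup G where
  carrier := {g | r.1 (g : G ⧸ H) ((1 : G) : G ⧸ H)}
  one_mem' := r.1.refl _
  mul_mem' {a b} ha hb := by
    have := cosetAlg_mul H r a hb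
    rw [mul_one] at this
    exact r.1.trans this ha
  inv_mem' {a} ha := by
    have := cosetAlg_mul H r a⁻¹ ha
    rw [mul_one, inv_mul_cancel] at this
    exact r.1.symm this

theorem con_iso : Nonempty ((cosetAlg H).Con ≃o Set.Ici H) := by
  let f : (cosetAlg H).Con ↪o Set.Ici H := OrderEmbedding.ofMapLEIff
    (fun r => ⟨conSub H r, fun h hh => by
      have e : (h : G ⧸ H) = ((1 : G) : G ⧸ H) := QuotientGroup.eq.2 (by simpa using hh)
      change r.1 (h : G ⧸ H) ((1 : G) : G ⧸ H)
      rw [e]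
      exact r.1.refl _⟩)
    fun r s => ⟨fun h x y hxy => by
      obtain ⟨x, rfl⟩ := QuotientGroup.mk_surjective (s := H) x
      obtain ⟨y, rfl⟩ := QuotientGroup.mk_surjective (s := H) y
      have h1 := cosetAlg_mul H r y⁻¹ hxy
      rw [inv_mul_cancel] at h1
      have h2 := cosetAlg_mul H s y (h h1 : y⁻¹ * x ∈ conSub H s)
      rwa [mul_inv_cancel_left, mul_one] at h2, fun h _ hg => h hg⟩
  refine ⟨OrderIso.ofSurjective f fun S => ?_⟩
  refine ⟨⟨Setoid.ker (Subgroup.quotientMapOfLE S.2), fun i x y h => ?_⟩, ?_⟩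
  · have key : ∀ (g : G) (x y : G ⧸ H), Subgroup.quotientMapOfLE S.2 x =
        Subgroup.quotientMapOfLE S.2 y → Subgroup.quotientMapOfLE S.2 (g • x) =
        Subgroup.quotientMapOfLE S.2 (g • y) := by
      intro g x y h0
      obtain ⟨a, rfl⟩ := QuotientGroup.mk_surjective (s := H) x
      obtain ⟨b, rfl⟩ := QuotientGroup.mk_surjective (s := H) y
      have h1 : a⁻¹ * b ∈ S.1 := QuotientGroup.eq.1 h0
      refine (QuotientGroup.eq (s := S.1) (a := g * a) (b := g * b)).2 ?_
      simpa [mul_assoc] using h1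
    exact key _ _ _ (h (0 : Fin 1))
  · refine Subtype.ext (Subgroup.ext fun g => ?_)
    refine (QuotientGroup.eq (s := S.1) (a := g) (b := 1)).trans ?_
    simp

end Vale.Agent.P183
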