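import Mathlib

/-! An infinite family of finite lattices. -/

namespace Vale.Agent.P183

/-- divisors `d > 1` of `n`, together with the divisors of `2 ^ n - 1` that are multiples of `3` -/
abbrev LF (n : ℕ) : Type := {d : ℕ // d ∣ n ∧ 1 < d} ⊕ {m : ℕ // 3 ∣ m ∧ m ∣ 2 ^ n - 1}

/-- the order of the family -/
def LF.le {n : ℕ} : LF n → LF n → Prop
  | .inl d, .inl d' => d.1 ∣ d'.1
  | .inr m, .inr m' => m.1 ∣ m'.1
  | .inr m, .inl d => (m.1 : ℤ) ∣ 2 ^ d.1 - (-1) ^ d.1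
  | .inl _, .inr _ => False

end Vale.Agent.P183
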