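import Mathlib

/-! Overgroups of `SL(2, 2)` in `SL(2, F)`, `F` finite of characteristic two. -/

namespace Vale.Agent.P183.Fam

open Matrix

variable {F : Type} [Field F]

abbrev G (F : Type) [Field F] : Type := Matrix.SpecialLinearGroup (Fin 2) F

instance [Finite F] : Finite (G F) := Subtype.finite

def act (x : G F) (p : F × F) : F × F :=
  (x 0 0 * p.1 + x 0 1 * p.2, x 1 0 * p.1 + x 1 1 * p.2)

theorem act_mul (x y : G F) (p : F × F) : act (x * y) p = act x (act y p) := by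
  have h : ∀ i j, (x * y) i j = x i 0 * y 0 j + x i 1 * y 1 j := fun i j => by
    change (x.1 * y.1) i j = _
    rw [Matrix.mul_apply, Fin.sum_univ_two]
  simp only [act, h]
  ext1 <;> simp only <;> ring

theorem act_one (p : F × F) : act 1 p = p := by
  simp [act]

theorem act_ext {x y : G F} (h1 : act x (1, 0) = act y (1, 0))
    (h2 : act x (0, 1) = act y (0, 1)) : x = y := by
  simp only [act, mul_one, mul_zero, add_zero, zero_add, Prod.mk.injEq] at h1 h2
  ext1 i j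
  fin_cases i <;> fin_cases j
  exacts [h1.1, h2.1, h1.2, h2.2]

theorem G_det (x : G F) : x 0 0 * x 1 1 - x 0 1 * x 1 0 = 1 := by
  rw [← Matrix.det_fin_two]
  exact x.2

theorem act_ne {x : G F} {p : F × F} (h : p ≠ 0) : act x p ≠ 0 := fun h0 => by
  apply h
  rw [← act_one p, ← inv_mul_cancel x, act_mul, h0]
  simp [act]

variable [CharP F 2]

theorem two (F : Type) [Field F] [CharP F 2] : (2 : F) = 0 := CharTwo.two_eq_zero

theorem sq_inj {a b : F} (h : a * a = b * b) : a = b := by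
  have : (a - b) * (a - b) = 0 := by linear_combination h + (b * b - a * b) * two F
  exact sub_eq_zero.1 (mul_self_eq_zero.1 this)

theorem sqrt_mem [Finite F] (A : Set F) (h : ∀ a ∈ A, a * a ∈ A) {a : F} (ha : a ∈ A) :
    ∃ r ∈ A, r * r = a := by
  have := Finite.surjective_of_injective (f := fun x : A => (⟨x * x, h x x.2⟩ : A))
    fun x y e => Subtype.ext (sq_inj (congrArg Subtype.val e))
  obtain ⟨r, hr⟩ := this ⟨a, ha⟩
  exact ⟨r, r.2, congrArg Subtype.val hr⟩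

theorem sqrt_ex [Finite F] (a : F) : ∃ r, r * r = a := by
  simpa using sqrt_mem Set.univ (fun _ _ => trivial) (Set.mem_univ a)

/-- the transvection of a vector -/
def tv (v : F × F) : G F :=
  ⟨!![1 + v.1 * v.2, v.1 * v.1; v.2 * v.2, 1 + v.1 * v.2], by
    rw [Matrix.det_fin_two_of]
    linear_combination (v.1 * v.2) * two F⟩

theorem act_tv (v y : F × F) : act (tv v) y =
    (y.1 + (v.1 * y.2 + v.2 * y.1) * v.1, y.2 + (v.1 * y.2 + v.2 * y.1) * v.2) := by
  simp only [act, tv, of_apply, cons_val', cons_val_zero, cons_val_one, cons_val_fin_one]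
  ext1 <;> simp only <;> ring

theorem tv_conj (x : G F) (v : F × F) : x * tv v = tv (act x v) * x := by
  have h : ∀ y, act (x * tv v) y = act (tv (act x v) * x) y := fun y => by
    have e : (act x v).1 * (act x y).2 + (act x v).2 * (act x y).1 = v.1 * y.2 + v.2 * y.1 := by
      simp only [act]
      linear_combination (v.1 * y.2 + v.2 * y.1) * G_det x + ((v.1 * y.2 + v.2 * y.1) *
        (x 0 1 * x 1 0) + v.1 * y.1 * (x 0 0 * x 1 0) + v.2 * y.2 * (x 0 1 * x 1 1)) * two F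
    rw [act_mul, act_mul, act_tv, act_tv, e]
    simp only [act]
    ext1 <;> simp only <;> ring
  exact act_ext (h _) (h _)

theorem tv_tv (v y : F × F) : act (tv v) (act (tv v) y) = y := by
  simp only [act_tv]
  ext1 <;> simp only
  · linear_combination ((v.1 * y.2 + v.2 * y.1) * v.1 * (1 + v.1 * v.2)) * two F
  · linear_combination ((v.1 * y.2 + v.2 * y.1) * v.2 * (1 + v.1 * v.2)) * two F

theorem tv_sq (v : F × F) : tv v * tv v = 1 :=
  act_ext (by rw [act_mul, tv_tv, act_one]) (by rw [act_mul, tv_tv, act_one])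

theorem tv_zero : tv (0 : F × F) = 1 :=
  act_ext (by simp [act_tv, act_one]) (by simp [act_tv, act_one])

theorem tv_inj {v y : F × F} (h : tv v = tv y) : v = y :=
  Prod.ext (sq_inj (congrArg (fun x : G F => x 0 1) h)) (sq_inj (congrArg (fun x : G F => x 1 0) h))

theorem tv_mem {S : Subgroup (G F)} {x : G F} {v : F × F} (hx : x ∈ S) (hv : tv v ∈ S) :
    tv (act x v) ∈ S := by
  have : tv (act x v) = x * tv v * x⁻¹ := by rw [tv_conj, mul_inv_cancel_right]
  rw [this]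
  exact mul_mem (mul_mem hx hv) (inv_mem hx)

variable [Finite F]

theorem invol {x : G F} (h : x * x = 1) : ∃ κ, x = tv κ := by
  have h1 := congrArg (act · (1, 0)) h
  have h2 := congrArg (act · (0, 1)) h
  simp only [act_mul, act_one] at h1 h2
  simp only [act, mul_one, mul_zero, add_zero, zero_add, Prod.mk.injEq] at h1 h2
  obtain ⟨b, hb⟩ := sqrt_ex (x 0 1)
  obtain ⟨c, hc⟩ := sqrt_ex (x 1 0)
  have e1 : x 0 0 = 1 + b * c := sq_inj (by
    linear_combination h1.1 - (c * c) * hb - x 0 1 * hc - (b * c + x 0 1 * x 1 0) * two F)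
  have e2 : x 1 1 = 1 + b * c := sq_inj (by
    linear_combination h2.2 - (c * c) * hb - x 0 1 * hc - (b * c + x 0 1 * x 1 0) * two F)
  refine ⟨(b, c), act_ext ?_ ?_⟩
  · rw [act_tv]
    simp [act, e1, hc, mul_comm]
  · rw [act_tv]
    simp [act, e2, hb]

theorem conj {S : Subgroup (G F)} {v y : F × F} (h : v.1 * y.2 + v.2 * y.1 ≠ 0) (hv : tv v ∈ S)
    (hy : tv y ∈ S) : ∃ k, tv k ∈ S ∧ act (tv k) v = y := by
  set g := tv v * tv y with hg
  have hN := orderOf_pos g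
  have hg1 := pow_orderOf_eq_one g
  obtain ⟨l, hl | hl⟩ := Nat.even_or_odd' (orderOf g)
  · exfalso
    obtain ⟨κ, hκ⟩ := invol (x := g ^ l) (by rw [← pow_add, ← two_mul, ← hl, hg1])
    have h0 : κ ≠ 0 := by
      rintro rfl
      exact pow_ne_one_of_lt_orderOf (by omega) (by omega) (hκ.trans tv_zero)
    have h1 : act g κ = κ := by
      apply tv_inj
      apply mul_right_cancel (b := g)
      rw [← tv_conj, ← hκ, pow_mul_comm']
    have h2 : act (tv y) κ = act (tv v) κ := by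
      conv_rhs => rw [← h1, hg, act_mul, tv_tv]
    simp only [act_tv, Prod.mk.injEq, add_right_inj] at h2
    have a1 : y.1 * κ.2 + y.2 * κ.1 = 0 := (mul_eq_zero.1 (by
      linear_combination v.2 * h2.1 + v.1 * h2.2 +
        ((v.1 * κ.2 + v.2 * κ.1) * v.1 * v.2) * two F)).resolve_right h
    have a2 : v.1 * κ.2 + v.2 * κ.1 = 0 := (mul_eq_zero.1 (by
      linear_combination (-y.2) * h2.1 - y.1 * h2.2 +
        ((y.1 * κ.2 + y.2 * κ.1) * y.1 * y.2) * two F)).resolve_right h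
    refine h0 (Prod.ext ((mul_eq_zero.1 ?_).resolve_right h) ((mul_eq_zero.1 ?_).resolve_right h))
    · linear_combination v.1 * a1 + y.1 * a2 - (v.1 * y.1 * κ.2) * two F
    · linear_combination v.2 * a1 + y.2 * a2 - (v.2 * y.2 * κ.1) * two F
  · have hi : (tv v)⁻¹ = tv v := inv_eq_of_mul_eq_one_right (tv_sq v)
    have hj : (tv y)⁻¹ = tv y := inv_eq_of_mul_eq_one_right (tv_sq y)
    have hs : SemiconjBy (tv v) g g⁻¹ := by
      rw [SemiconjBy, hg, _root_.mul_inv_rev, hi, hj, ← mul_assoc, tv_sq, mul_assoc, tv_sq, one_mul,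
        mul_one]
    have hp := (hs.pow_right l).eq
    obtain ⟨κ, hκ⟩ := invol (x := g ^ l * tv v) (by
      rw [mul_assoc, ← mul_assoc (tv v), hp, mul_assoc, tv_sq, mul_one, inv_pow, mul_inv_cancel])
    refine ⟨κ, hκ ▸ mul_mem (pow_mem (mul_mem hv hy) l) hv, tv_inj ?_⟩
    apply mul_right_cancel (b := tv κ)
    have e : tv y = g⁻¹ * tv v := by
      rw [hg, _root_.mul_inv_rev, hi, hj, mul_assoc, tv_sq, mul_one]
    rw [← tv_conj, ← hκ, mul_assoc, tv_sq, mul_one, e, mul_assoc, ← mul_assoc (tv v), hp,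
      mul_assoc, tv_sq, mul_one, ← pow_succ', inv_pow, eq_inv_iff_mul_eq_one, ← pow_add, ← hg1, hl]
    congr 1
    omega

variable {S : Subgroup (G F)}

theorem trans1 (h1 : tv (1, 0) ∈ S) (h2 : tv (0, 1) ∈ S) {v : F × F} (h0 : v ≠ 0)
    (hv : tv v ∈ S) : ∃ g ∈ S, act g v = (1, 0) := by
  by_cases hc : v.2 = 0
  · have ha : v.1 ≠ 0 := fun h => h0 (Prod.ext h hc)
    obtain ⟨k, hk, e⟩ := conj (y := (0, 1)) (by simpa using ha) hv h2
    obtain ⟨k', hk', e'⟩ := conj (v := (0, 1)) (y := (1, 0)) (by simp) h2 h1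
    exact ⟨tv k' * tv k, mul_mem hk' hk, by rw [act_mul, e, e']⟩
  · obtain ⟨k, hk, e⟩ := conj (y := (1, 0)) (by simpa using hc) hv h1
    exact ⟨tv k, hk, e⟩

theorem fix1 {z : G F} (h : act z (1, 0) = (1, 0)) : ∃ r, z = tv (r, 0) := by
  obtain ⟨r, hr⟩ := sqrt_ex (z 0 1)
  have hd := G_det z
  refine ⟨r, act_ext (by simp [h, act_tv]) ?_⟩
  simp only [act, mul_one, mul_zero, add_zero, Prod.mk.injEq] at h
  rw [h.1, h.2, one_mul, mul_zero, sub_zero] at hd
  rw [act_tv]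
  simp [act, hd, hr]

theorem fix2 {z : G F} (h : act z (0, 1) = (0, 1)) : ∃ r, z = tv (0, r) := by
  obtain ⟨r, hr⟩ := sqrt_ex (z 1 0)
  have hd := G_det z
  refine ⟨r, act_ext ?_ (by simp [h, act_tv])⟩
  simp only [act, mul_one, mul_zero, zero_add, Prod.mk.injEq] at h
  rw [h.1, h.2, mul_one, zero_mul, sub_zero] at hd
  rw [act_tv]
  simp [act, hd, hr]

theorem le_of_tv (h1 : tv (1, 0) ∈ S) (h2 : tv (0, 1) ∈ S) {S' : Subgroup (G F)}
    (h : ∀ v, tv v ∈ S → tv v ∈ S') : S ≤ S' := by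
  intro x hx
  have hp := tv_mem hx h1
  obtain ⟨g, hg, e⟩ := trans1 (S := S ⊓ S') ⟨h1, h _ h1⟩ ⟨h2, h _ h2⟩
    (act_ne (by simp)) ⟨hp, h _ hp⟩
  rw [← act_mul] at e
  obtain ⟨r, hr⟩ := fix1 e
  have : g * x ∈ S' := hr ▸ h _ (hr ▸ mul_mem hg.1 hx)
  exact (Subgroup.mul_mem_cancel_left _ hg.2).1 this

theorem swap (h1 : tv (1, 0) ∈ S) (h2 : tv (0, 1) ∈ S) {a c : F} (h : tv (a, c) ∈ S) :
    tv (c, a) ∈ S := by
  have h3 := tv_mem (tv_mem h1 h2) h
  have e : act (tv (act (tv (1, 0)) (0, 1))) (a, c) = (c, a) := by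
    simp only [act_tv]
    ext1 <;> simp only
    · linear_combination a * two F
    · linear_combination c * two F
  rwa [e] at h3

/-- the stabiliser of a set of vectors -/
def stab (W : F × F → Prop) : Subgroup (G F) where
  carrier := {x | ∀ v, W (act x v) ↔ W v}
  one_mem' v := by rw [act_one]
  mul_mem' {x y} hx hy v := by rw [act_mul, hx, hy]
  inv_mem' {x} hx v := by rw [← hx, ← act_mul, mul_inv_cancel, act_one]

omit [Finite F] in
theorem tv_stab {W : F × F → Prop} (hW : ∀ v y, W v → W y → W (act (tv v) y)) {v : F × F}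
    (h : W v) : tv v ∈ stab W := fun y =>
  ⟨fun hy => by simpa only [tv_tv] using hW _ _ h hy, hW _ _ h⟩

theorem div_mem' (h1 : tv (1, 0) ∈ S) (h2 : tv (0, 1) ∈ S) {a t : F} (ha : tv (a, 0) ∈ S)
    (ht : tv (t, 0) ∈ S) : tv (a / t, 0) ∈ S := by
  by_cases h0 : t = 0
  · rw [h0, div_zero]
    exact ((tv_zero (F := F)).symm ▸ one_mem S : tv (0 : F × F) ∈ S)
  obtain ⟨g, hg, e⟩ := trans1 h1 h2 (by simpa using h0) ht
  have := tv_mem hg ha
  simp only [act, mul_zero, add_zero, Prod.mk.injEq, mul_eq_zero, h0, or_false] at e this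
  rwa [e.2, zero_mul, eq_div_of_mul_eq h0 e.1, one_div, mul_comm, ← div_eq_mul_inv] at this

/-- the subfield attached to an overgroup -/
def fld (h1 : tv (1, 0) ∈ S) (h2 : tv (0, 1) ∈ S) : Subfield F where
  carrier := {t | tv (t, 0) ∈ S}
  one_mem' := h1
  zero_mem' := ((tv_zero (F := F)).symm ▸ one_mem S : tv (0 : F × F) ∈ S)
  add_mem' {a b} ha hb := by
    have e : tv (a + b, 0) = tv (a, 0) * tv (b, 0) := act_ext (by simp [act_mul, act_tv]) (by
      simp only [act_mul, act_tv]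
      ext1 <;> simp only
      · linear_combination (a * b) * two F
      · ring)
    change tv (a + b, 0) ∈ S
    exact e ▸ mul_mem ha hb
  neg_mem' {a} ha := by rwa [CharTwo.neg_eq]
  mul_mem' {a b} ha hb := by
    simpa using div_mem' h1 h2 ha (div_mem' h1 h2 h1 hb)
  inv_mem' a ha := by simpa using div_mem' h1 h2 h1 ha

omit [Finite F] in
theorem sub_closed (A : Subfield F) (v y : F × F) (hv : v.1 ∈ A ∧ v.2 ∈ A)
    (hy : y.1 ∈ A ∧ y.2 ∈ A) : (act (tv v) y).1 ∈ A ∧ (act (tv v) y).2 ∈ A := by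
  have := add_mem (mul_mem hv.1 hy.2) (mul_mem hv.2 hy.1)
  rw [act_tv]
  exact ⟨add_mem hy.1 (mul_mem this hv.1), add_mem hy.2 (mul_mem this hv.2)⟩

theorem big (h1 : tv (1, 0) ∈ S) (h2 : tv (0, 1) ∈ S) {t : F} (ht : t ∈ fld h1 h2) (t0 : t ≠ 0)
    (t1 : t ≠ 1) (v : F × F) : tv v ∈ S ↔ v.1 ∈ fld h1 h2 ∧ v.2 ∈ fld h1 h2 := by
  set A := fld h1 h2 with hA
  have hm : ∀ a, a ∈ A ↔ tv (a, 0) ∈ S := fun a => Iff.rfl
  obtain ⟨a, c⟩ := v
  by_cases hc : c = 0
  · subst hc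
    exact ⟨fun h => ⟨h, zero_mem _⟩, fun h => h.1⟩
  have key : a / c ∈ A → (tv (a, c) ∈ S ↔ tv (0, c) ∈ S) := fun h => by
    obtain ⟨r, hr, e⟩ := sqrt_mem (A : Set F) (fun a ha => mul_mem ha ha) h
    have e1 : act (tv (r, 0)) (0, c) = (a, c) := by
      rw [act_tv]
      ext1 <;> simp only
      · rw [eq_div_iff hc] at e
        linear_combination e
      · ring
    refine ⟨fun h => ?_, fun h => e1 ▸ tv_mem hr h⟩
    have := tv_mem hr h
    rwa [← e1, tv_tv] at this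
  refine ⟨fun h => ?_, fun h => (key (div_mem h.1 h.2)).2 (swap h1 h2 h.2)⟩
  suffices hs : a / c ∈ A by
    have hcA : c ∈ A := swap h1 h2 ((key hs).1 h)
    exact ⟨div_mul_cancel₀ a hc ▸ mul_mem hs hcA, hcA⟩
  obtain ⟨k, hk, e⟩ := conj (v := (1, 0)) (by simpa using hc) h1 h
  obtain ⟨k', hk', e'⟩ := conj (v := (t, 0)) (by simpa using ⟨t0, hc⟩) ht h
  have hT : ∀ v : F × F, v.1 ∈ A ∧ v.2 ∈ A → tv v ∈ stab fun v => v.1 ∈ A ∧ v.2 ∈ A :=
    fun v hv => tv_stab (sub_closed A) hv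
  obtain ⟨g, hg, eg⟩ := trans1 (S := S ⊓ stab fun v => v.1 ∈ A ∧ v.2 ∈ A)
    ⟨h1, hT _ ⟨one_mem _, zero_mem _⟩⟩ ⟨h2, hT _ ⟨zero_mem _, one_mem _⟩⟩ (v := (t, 0))
    (by simpa using t0) ⟨ht, hT _ ⟨ht, zero_mem _⟩⟩
  obtain ⟨r, hr⟩ := fix1 (z := tv k * tv k' * g⁻¹) (by
    rw [act_mul, act_mul, ← eg, ← act_mul g⁻¹, inv_mul_cancel, act_one, e', ← e, tv_tv, eg])
  have hrA : r ∈ A := by
    rw [hm, ← hr]
    exact mul_mem (mul_mem hk hk') (inv_mem hg.1)
  have hβ : tv k * tv k' ∈ stab fun v => v.1 ∈ A ∧ v.2 ∈ A := by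
    rw [mul_inv_eq_iff_eq_mul.1 hr]
    exact mul_mem (hT _ ⟨hrA, zero_mem _⟩) hg.2
  have hb := ((hβ (0, 1)).2 ⟨zero_mem _, one_mem _⟩).1
  have h3 : 1 + t ≠ 0 := fun h => t1 (by linear_combination h - two F)
  have e3 : a / c = t * (act (tv k * tv k') (0, 1)).1 / ((1 + t) * (1 + t)) := by
    rw [div_eq_div_iff hc (mul_ne_zero h3 h3), act_mul]
    simp only [act_tv, Prod.mk.injEq] at e e' ⊢
    obtain ⟨x, y⟩ := k
    obtain ⟨x', y'⟩ := k'
    simp only [mul_zero, mul_one, zero_add, add_zero] at e e' ⊢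
    obtain ⟨e1, e2⟩ := e
    obtain ⟨e3, e4⟩ := e'
    have f1 : c * (x * x) = (a + 1) * (a + 1) := by
      linear_combination (-(x * x)) * e2 + (y * x + a + 1) * e1 - (y * x + a + 1) * two F
    have f2 : c * (t * (x' * x')) = (a + t) * (a + t) := by
      linear_combination (-(t * x' * x')) * e4 + (y' * t * x' + a + t) * e3 -
        (t * (y' * t * x' + a + t)) * two F
    linear_combination (-a) * f1 - a * f2 - (c * t * x' * x') * e1 - (c * x * x) * e3 -
      (a * (a * a + a + a * t - t)) * two F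
  rw [e3]
  exact div_mem (mul_mem ht hb) (mul_mem (add_mem (one_mem _) ht) (add_mem (one_mem _) ht))

theorem small (h1 : tv (1, 0) ∈ S) (h2 : tv (0, 1) ∈ S)
    (h : ∀ t, tv (t, 0) ∈ S → t = 0 ∨ t = 1) {v : F × F} (h0 : v ≠ 0) (hv : tv v ∈ S) :
    v.1 * v.1 + v.1 * v.2 + v.2 * v.2 = 1 := by
  have key : ∀ g ∈ S, (∃ κ, g = tv κ) ∨ ∃ κ, g * tv (0, 1) = tv κ := by
    intro g hg
    have hp := tv_mem hg h2
    have hp0 : act g (0, 1) ≠ 0 := act_ne (by simp)
    generalize hq : act g (0, 1) = p at hp hp0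
    obtain ⟨a, c⟩ := p
    by_cases ha : a = 0
    · subst ha
      rcases h c (swap h1 h2 hp) with rfl | rfl
      · exact absurd rfl hp0
      · obtain ⟨r, hr⟩ := fix2 hq
        exact Or.inl ⟨_, hr⟩
    · obtain ⟨k, hk, e⟩ := conj (y := (0, 1)) (by simpa using ha) hp h2
      rw [← hq, ← act_mul] at e
      obtain ⟨r, hr⟩ := fix2 e
      have e1 : g = tv k * tv (0, r) := by rw [← hr, ← mul_assoc, tv_sq, one_mul]
      rcases h r (swap h1 h2 (hr ▸ mul_mem hk hg)) with rfl | rfl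
      · exact Or.inl ⟨k, by rw [e1]; exact (congrArg _ tv_zero).trans (mul_one _)⟩
      · exact Or.inr ⟨k, by rw [e1, mul_assoc, tv_sq, mul_one]⟩
  have tr : ∀ κ : F × F, (act (tv κ) (1, 0)).1 + (act (tv κ) (0, 1)).2 = 0 := fun κ => by
    simp only [act_tv]
    linear_combination (1 + κ.1 * κ.2) * two F
  obtain ⟨a, c⟩ := v
  rcases key _ (mul_mem hv h1) with ⟨κ, e⟩ | ⟨κ, e⟩
  · have := tr κ
    rw [← e] at this
    simp only [act_mul, act_tv] at this
    have hc : c = 0 := mul_self_eq_zero.1 (by linear_combination this - (1 + a * c) * two F)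
    subst hc
    rcases h a hv with rfl | rfl
    · exact absurd rfl h0
    · simp
  · have := tr κ
    rw [← e] at this
    simp only [act_mul, act_tv] at this ⊢
    linear_combination this - (2 + a * c) * two F

end Vale.Agent.P183.Fam
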