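import Vale.Agent.P183.Fam1
import Vale.Agent.P183.Def2

/-! The explicit list of overgroups. -/

namespace Vale.Agent.P183.Fam

variable {F : Type} [Field F]

theorem cyc [Finite F] (D : Subgroup Fˣ) (u : Fˣ) : u ∈ D ↔ u ^ Nat.card D = 1 := by
  have : NeZero (Nat.card D) := ⟨Nat.card_pos.ne'⟩
  have h : D ≤ rootsOfUnity (Nat.card D) F := fun x hx => by
    have := congrArg Subtype.val (pow_card_eq_one' (x := (⟨x, hx⟩ : D)))
    exact this
  conv_lhs => rw [Subgroup.eq_of_le_of_card_ge h (card_rootsOfUnity _ _)]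
  rfl

theorem ex_ord [Finite F] {m : ℕ} (hm : m ∣ Nat.card F - 1) :
    ∃ x : F, x ≠ 0 ∧ ∀ k, x ^ k = 1 ↔ m ∣ k := by
  obtain ⟨g, hg⟩ := IsCyclic.exists_ofOrder_eq_natCard (α := Fˣ)
  rw [Nat.card_units] at hg
  have h := orderOf_pow_orderOf_div (orderOf_pos g).ne' (hg ▸ hm)
  refine ⟨(g ^ (orderOf g / m) : Fˣ), Units.ne_zero _, fun k => ?_⟩
  rw [← h, orderOf_dvd_iff_pow_eq_one, ← Units.val_pow_eq_pow_val, Units.val_eq_one, h]

theorem pow_fix {x : F} (hx : x ≠ 0) (d : ℕ) : x ^ 2 ^ d = x ↔ x ^ (2 ^ d - 1) = 1 := by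
  have : 2 ^ d = 2 ^ d - 1 + 1 := (Nat.sub_add_cancel Nat.one_le_two_pow).symm
  conv_lhs => rw [this, pow_succ, mul_eq_right₀ hx]

variable [CharP F 2]

theorem subfield_eq [Finite F] {n : ℕ} (hn : Nat.card F = 2 ^ n) (A : Subfield F) :
    ∃ d, d ∣ n ∧ 0 < d ∧ ∀ x, x ∈ A ↔ x ^ 2 ^ d = x := by
  have := Fintype.ofFinite A
  obtain ⟨d, -, hd⟩ := FiniteField.card A 2
  rw [← Nat.card_eq_fintype_card] at hd
  refine ⟨d, ⟨Module.finrank A F, ?_⟩, d.2, fun x => ?_⟩
  · have h := Module.natCard_eq_pow_finrank (K := A) (V := F)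
    rw [hn, hd, ← pow_mul] at h
    exact Nat.pow_right_injective le_rfl h
  · by_cases hx : x = 0
    · simp [hx]
    have hi : Function.Injective (Units.map (A.subtype : A →* F)) :=
      Units.map_injective Subtype.val_injective
    have hc : Nat.card (Units.map (A.subtype : A →* F)).range = 2 ^ (d : ℕ) - 1 := by
      rw [← Nat.card_congr (MonoidHom.ofInjective hi).toEquiv, Nat.card_units, hd]
    have h := cyc (Units.map (A.subtype : A →* F)).range (Units.mk0 x hx)
    rw [hc, ← Units.val_eq_one, Units.val_pow_eq_pow_val, Units.val_mk0] at h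
    rw [pow_fix hx, ← h]
    refine ⟨fun hA => ⟨Units.mk0 ⟨x, hA⟩ fun e => hx (congrArg Subtype.val e), Units.ext rfl⟩, ?_⟩
    rintro ⟨u, hu⟩
    have : x = (u : A) := (congrArg Units.val hu).symm
    exact this ▸ (u : A).2

def Q (v : F × F) : F := v.1 * v.1 + v.1 * v.2 + v.2 * v.2

def lam (w : F) (v : F × F) : F := v.1 + w * v.2

def vec (w x : F) : F × F := (x + w * (x + x⁻¹), x + x⁻¹)

def WF (w : F) {n : ℕ} : LF n → F × F → Prop
  | .inl d, v => v.1 ^ 2 ^ d.1 = v.1 ∧ v.2 ^ 2 ^ d.1 = v.2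
  | .inr m, v => v = 0 ∨ (Q v = 1 ∧ lam w v ^ m.1 = 1)

variable {w : F}

theorem lam_mul (hw : w * w + w + 1 = 0) (v : F × F) : lam w v * lam (w + 1) v = Q v := by
  unfold lam Q
  linear_combination (v.2 * v.2) * hw + (w * v.1 * v.2 - v.2 * v.2) * two F

theorem lam_vec (x : F) : lam w (vec w x) = x := by
  unfold lam vec
  linear_combination (w * (x + x⁻¹)) * two F

theorem Q_vec (hw : w * w + w + 1 = 0) {x : F} (hx : x ≠ 0) : Q (vec w x) = 1 := by
  have : lam (w + 1) (vec w x) = x⁻¹ := by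
    unfold lam vec
    linear_combination (x + w * (x + x⁻¹)) * two F
  rw [← lam_mul hw, this, lam_vec, mul_inv_cancel₀ hx]

theorem vec_lam (hw : w * w + w + 1 = 0) {v : F × F} (h : Q v = 1) : vec w (lam w v) = v := by
  have e : (lam w v)⁻¹ = lam (w + 1) v := inv_eq_of_mul_eq_one_right (by rw [lam_mul hw, h])
  unfold vec
  rw [e]
  unfold lam
  ext1 <;> simp only
  · linear_combination (w * v.2 + w * v.1 + w * w * v.2) * two F
  · linear_combination (v.1 + w * v.2) * two F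

theorem lam_ne (hw : w * w + w + 1 = 0) {v : F × F} (h : Q v = 1) : lam w v ≠ 0 := fun e => by
  rw [← lam_mul hw, e, zero_mul] at h
  exact zero_ne_one h

theorem Q_tv (v y : F × F) :
    Q (act (tv v) y) = Q y + (v.1 * y.2 + v.2 * y.1) * (v.1 * y.2 + v.2 * y.1) * (1 + Q v) := by
  simp only [act_tv, Q]
  linear_combination ((v.1 * y.2 + v.2 * y.1) * (y.1 * v.1 + y.2 * v.2)) * two F

theorem Q_tv' {v : F × F} (h : Q v = 1) (y : F × F) : Q (act (tv v) y) = Q y := by
  rw [Q_tv, h, one_add_one_eq_two, two F, mul_zero, add_zero]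

theorem lam_tv (hw : w * w + w + 1 = 0) {v y : F × F} (hv : Q v = 1) (hy : Q y = 1) :
    lam w (act (tv v) y) * lam w y = lam w v * lam w v := by
  have h1 := (lam_mul hw v).trans hv
  have h2 := (lam_mul hw y).trans hy
  have e : lam w (act (tv v) y) = lam w y +
      (lam w v * lam (w + 1) y + lam (w + 1) v * lam w y) * lam w v := by
    simp only [act_tv, lam]
    linear_combination (-(v.1 * y.1 + w * (v.1 * y.2 + v.2 * y.1) + w * (w + 1) * v.2 * y.2) *
      (v.1 + w * v.2)) * two F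
  rw [e]
  linear_combination (lam w v * lam w v) * h2 + (lam w y * lam w y) * h1 +
    (lam w y * lam w y) * two F

theorem w_cube (hw : w * w + w + 1 = 0) : w ^ 3 = 1 := by linear_combination (w - 1) * hw

theorem w_ne (hw : w * w + w + 1 = 0) : w ≠ 1 := by
  rintro rfl
  exact one_ne_zero (by linear_combination hw - two F)

theorem frob_add (d : ℕ) (x y : F) : (x + y) ^ 2 ^ d = x ^ 2 ^ d + y ^ 2 ^ d :=
  add_pow_char_pow ..

theorem WF_clo (hw : w * w + w + 1 = 0) {n : ℕ} (x : LF n) (v y : F × F) (hv : WF w x v)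
    (hy : WF w x y) : WF w x (act (tv v) y) := by
  rcases x with d | m
  · simp only [WF, act_tv, frob_add, mul_pow, hv.1, hv.2, hy.1, hy.2, and_self]
  · rcases hv with rfl | hv
    · rwa [tv_zero, act_one]
    rcases hy with rfl | hy
    · exact Or.inl (by simp [act_tv])
    refine Or.inr ⟨(Q_tv' hv.1 y).trans hy.1, ?_⟩
    have := congrArg (· ^ m.1) (lam_tv hw hv.1 hy.1)
    simpa only [mul_pow, hv.2, hy.2, mul_one] using this

theorem WF_e1 {n : ℕ} (x : LF n) : WF w x (1, 0) := by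
  rcases x with d | m <;> simp [WF, Q, lam]

theorem WF_e2 (hw : w * w + w + 1 = 0) {n : ℕ} (x : LF n) : WF w x (0, 1) := by
  rcases x with d | m
  · simp [WF]
  · obtain ⟨m, ⟨k, rfl⟩, h⟩ := m
    simp [WF, Q, lam, pow_mul, w_cube hw]

theorem WF_back (hw : w * w + w + 1 = 0) {n : ℕ} (x : LF n) (v : F × F)
    (h1 : WF w x (act (tv v) (1, 0))) (h2 : WF w x (act (tv v) (0, 1))) : WF w x v := by
  rcases x with d | m
  · simp only [WF, act_tv, mul_zero, mul_one, zero_add, add_zero, mul_pow] at h1 h2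
    exact ⟨sq_inj h2.1, sq_inj h1.2⟩
  · by_cases h0 : v = 0
    · exact Or.inl h0
    have a1 := h1.resolve_left (act_ne (by simp))
    have a2 := h2.resolve_left (act_ne (by simp))
    have q1 : Q ((1 : F), (0 : F)) = 1 := by simp [Q]
    have q2 : Q ((0 : F), (1 : F)) = 1 := by simp [Q]
    have hQ : Q v = 1 := by
      by_contra hq
      have hq' : 1 + Q v ≠ 0 := fun e => hq (by linear_combination e - two F)
      have b1 := a1.1
      have b2 := a2.1
      rw [Q_tv, q1, add_eq_left, mul_eq_zero, or_iff_left hq', mul_self_eq_zero] at b1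
      rw [Q_tv, q2, add_eq_left, mul_eq_zero, or_iff_left hq', mul_self_eq_zero] at b2
      exact h0 (Prod.ext (by simpa using b2) (by simpa using b1))
    refine Or.inr ⟨hQ, sq_inj ?_⟩
    have := congrArg (· ^ m.1) (lam_tv hw hQ q1)
    simp only [mul_pow, a1.2] at this
    rw [← this]
    simp [lam]

theorem tv_stab_iff (hw : w * w + w + 1 = 0) {n : ℕ} (x : LF n) (v : F × F) :
    tv v ∈ stab (WF w x) ↔ WF w x v :=
  ⟨fun h => WF_back hw x v ((h _).2 (WF_e1 x)) ((h _).2 (WF_e2 hw x)), tv_stab (WF_clo hw x)⟩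

theorem classify [Finite F] (hw : w * w + w + 1 = 0) {n : ℕ} (hn : Nat.card F = 2 ^ n)
    {S : Subgroup (G F)} (h1 : tv (1, 0) ∈ S) (h2 : tv (0, 1) ∈ S) :
    ∃ x : LF n, ∀ v, tv v ∈ S ↔ WF w x v := by
  by_cases h : ∀ t, tv (t, 0) ∈ S → t = 0 ∨ t = 1
  · have step : ∀ a b : F, a ≠ 0 → b ≠ 0 → tv (vec w a) ∈ S → tv (vec w b) ∈ S →
        tv (vec w (a * a / b)) ∈ S := by
      intro a b ha hb sa sb
      have e := lam_tv hw (Q_vec hw ha) (Q_vec hw hb)
      simp only [lam_vec] at e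
      rw [← eq_div_of_mul_eq hb e, vec_lam hw ((Q_tv' (Q_vec hw ha) _).trans (Q_vec hw hb))]
      exact tv_mem sa sb
    have one : tv (vec w 1) ∈ S := by
      have := vec_lam hw (v := (1, 0)) (by simp [Q])
      simp only [lam, mul_zero, add_zero] at this
      rwa [this]
    have inv : ∀ b : F, b ≠ 0 → tv (vec w b) ∈ S → tv (vec w b⁻¹) ∈ S := fun b hb sb => by
      simpa using step 1 b one_ne_zero hb one sb
    let D : Subgroup Fˣ :=
      { carrier := {u | tv (vec w u) ∈ S}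
        one_mem' := one
        inv_mem' := fun {u} hu => by simpa using inv u u.ne_zero hu
        mul_mem' := fun {u u'} hu hu' => by
          obtain ⟨r, hr, e⟩ := sqrt_mem {x : F | x ≠ 0 ∧ tv (vec w x) ∈ S} (fun a ha =>
            ⟨mul_ne_zero ha.1 ha.1, by simpa using step a 1 ha.1 one_ne_zero ha.2 one⟩)
            (a := u) ⟨u.ne_zero, hu⟩
          simpa [e] using step r (u' : F)⁻¹ hr.1 (inv_ne_zero u'.ne_zero) hr.2
            (inv _ u'.ne_zero hu') }
    have key : ∀ v, Q v = 1 → (tv v ∈ S ↔ lam w v ^ Nat.card D = 1) := fun v hv => by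
      have := cyc D (Units.mk0 _ (lam_ne hw hv))
      rw [← Units.val_eq_one, Units.val_pow_eq_pow_val, Units.val_mk0] at this
      rw [← this]
      change _ ↔ tv (vec w (lam w v)) ∈ S
      rw [vec_lam hw hv]
    refine ⟨.inr ⟨Nat.card D, ?_, ?_⟩, fun v => ⟨fun hv => ?_, ?_⟩⟩
    · have := (key (0, 1) (by simp [Q])).1 h2
      simp only [lam, mul_one, zero_add] at this
      haveI h3 : Fact (Nat.Prime 3) := ⟨Nat.prime_three⟩
      rw [← orderOf_eq_prime (w_cube hw) (w_ne hw)]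
      exact orderOf_dvd_of_pow_eq_one this
    · rw [← hn, ← Nat.card_units]
      exact D.card_subgroup_dvd_card
    · by_cases h0 : v = 0
      · exact Or.inl h0
      · exact Or.inr ⟨small h1 h2 h h0 hv, (key v (small h1 h2 h h0 hv)).1 hv⟩
    · rintro (rfl | hv)
      · exact (tv_zero (F := F)).symm ▸ one_mem S
      · exact (key v hv.1).2 hv.2
  · push Not at h
    obtain ⟨t, ht, t0, t1⟩ := h
    obtain ⟨d, hd, hd0, hA⟩ := subfield_eq hn (fld h1 h2)
    refine ⟨.inl ⟨d, hd, ?_⟩, fun v => by rw [big h1 h2 ht t0 t1, hA, hA]; rfl⟩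
    by_contra hd1
    obtain rfl : d = 1 := by omega
    have := (pow_fix t0 1).1 ((hA t).1 ht)
    exact t1 (by simpa using this)

theorem frob_w (hw : w * w + w + 1 = 0) (d : ℕ) :
    w ^ 2 ^ d = if Even d then w else w + 1 := by
  induction d with
  | zero => simp
  | succ d ih =>
    rw [pow_succ, pow_mul, ih]
    simp only [Nat.even_add_one]
    by_cases h : Even d
    · simp only [h, if_true, not_true, if_false]
      linear_combination hw - (w + 1) * two F
    · simp only [h, if_false, not_false_iff, if_true]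
      linear_combination hw

theorem vec_inl (hw : w * w + w + 1 = 0) {x : F} (hx : x ≠ 0) (d : ℕ) :
    ((vec w x).1 ^ 2 ^ d = (vec w x).1 ∧ (vec w x).2 ^ 2 ^ d = (vec w x).2) ↔
      x ^ (if Even d then 2 ^ d - 1 else 2 ^ d + 1) = 1 := by
  have e : x ^ (if Even d then 2 ^ d - 1 else 2 ^ d + 1) = 1 ↔
      x ^ 2 ^ d = if Even d then x else x⁻¹ := by
    split_ifs
    · exact (pow_fix hx d).symm
    · rw [pow_succ, mul_eq_one_iff_eq_inv₀ hx]
  rw [e]
  constructor
  · rintro ⟨h1, h2⟩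
    conv_lhs => rw [← lam_vec (w := w) x, lam, frob_add, mul_pow, h1, h2, frob_w hw]
    unfold vec
    split_ifs
    · linear_combination (w * (x + x⁻¹)) * two F
    · linear_combination (x + w * (x + x⁻¹)) * two F
  · intro h
    simp only [vec, frob_add, mul_pow, inv_pow, h, frob_w hw]
    split_ifs
    · exact ⟨rfl, rfl⟩
    · rw [inv_inv]
      exact ⟨by linear_combination x⁻¹ * two F, add_comm _ _⟩

theorem WF_le [Finite F] (hw : w * w + w + 1 = 0) {n : ℕ} (hn : Nat.card F = 2 ^ n)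
    (x y : LF n) : (∀ v, WF w x v → WF w y v) ↔ x.le y := by
  rcases x with d | m <;> rcases y with d' | m'
  · refine ⟨fun h => ?_, ?_⟩
    · obtain ⟨x, hx, ho⟩ := ex_ord (F := F) (hn ▸ Nat.pow_sub_one_dvd_pow_sub_one 2 d.2.1)
      have h1 := (h (x, 0) ⟨(pow_fix hx _).2 ((ho _).2 dvd_rfl), by simp⟩).1
      have h2 := Nat.mod_eq_zero_of_dvd ((ho _).1 ((pow_fix hx _).1 h1))
      rw [Nat.pow_sub_one_mod_pow_sub_one, Nat.sub_eq_zero_iff_le] at h2
      refine Nat.dvd_of_mod_eq_zero (by_contra fun h0 => ?_)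
      exact absurd (Nat.one_lt_two_pow h0) (not_lt.2 h2)
    · rintro ⟨k, hk⟩ v hv
      have key : ∀ x : F, x ^ 2 ^ d.1 = x → x ^ 2 ^ d'.1 = x := fun x hx => by
        rw [hk]
        clear hk
        induction k with
        | zero => simp
        | succ k ih => rw [mul_add, mul_one, pow_add, pow_mul, ih, hx]
      exact ⟨key _ hv.1, key _ hv.2⟩
  · refine iff_of_false (fun h => ?_) id
    obtain ⟨x, hx, ho⟩ := ex_ord (F := F) (hn ▸ Nat.pow_sub_one_dvd_pow_sub_one 2 d.2.1)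
    rcases h (x, 0) ⟨(pow_fix hx _).2 ((ho _).2 dvd_rfl), by simp⟩ with h1 | h1
    · exact hx (congrArg Prod.fst h1)
    · have h2 : x = 1 := sq_inj (by simpa [Q] using h1.1)
      have h3 := Nat.le_of_dvd one_pos ((ho 1).1 (by rw [h2, one_pow]))
      have h4 : 2 ^ 2 ≤ 2 ^ d.1 := Nat.pow_le_pow_right two_pos d.2.2
      omega
  · have e : (m.1 : ℤ) ∣ 2 ^ d'.1 - (-1) ^ d'.1 ↔
        m.1 ∣ if Even d'.1 then 2 ^ d'.1 - 1 else 2 ^ d'.1 + 1 := by
      rw [← Int.natCast_dvd_natCast]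
      split_ifs with h
      · rw [h.neg_one_pow, Nat.cast_sub Nat.one_le_two_pow]
        simp
      · rw [(Nat.not_even_iff_odd.1 h).neg_one_pow]
        simp
    refine Iff.trans ⟨fun h => ?_, fun h v hv => ?_⟩ e.symm
    · obtain ⟨x, hx, ho⟩ := ex_ord (F := F) (show m.1 ∣ Nat.card F - 1 by rw [hn]; exact m.2.2)
      exact (ho _).1 ((vec_inl hw hx _).1 (h _ (Or.inr ⟨Q_vec hw hx,
        by rw [lam_vec]; exact (ho _).2 dvd_rfl⟩)))
    · rcases hv with rfl | hv
      · simp [WF]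
      · obtain ⟨k, hk⟩ := h
        rw [← vec_lam hw hv.1]
        exact (vec_inl hw (lam_ne hw hv.1) _).2 (by rw [hk, pow_mul, hv.2, one_pow])
  · refine ⟨fun h => ?_, ?_⟩
    · obtain ⟨x, hx, ho⟩ := ex_ord (F := F) (show m.1 ∣ Nat.card F - 1 by rw [hn]; exact m.2.2)
      rcases h _ (Or.inr ⟨Q_vec hw hx, by rw [lam_vec]; exact (ho _).2 dvd_rfl⟩) with h1 | h1
      · have := Q_vec hw hx
        rw [h1] at this
        simp [Q] at this
      · exact (ho _).1 (lam_vec (w := w) x ▸ h1.2)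
    · rintro ⟨k, hk⟩ v (hv | hv)
      · exact Or.inl hv
      · exact Or.inr ⟨hv.1, by rw [hk, pow_mul, hv.2, one_pow]⟩

theorem le_antisymm' {n : ℕ} {x y : LF n} (h1 : x.le y) (h2 : y.le x) : x = y := by
  rcases x with d | m <;> rcases y with d' | m'
  · rw [Subtype.ext (Nat.dvd_antisymm h1 h2)]
  · exact h1.elim
  · exact h2.elim
  · rw [Subtype.ext (Nat.dvd_antisymm h1 h2)]

theorem family {n : ℕ} (h0 : 0 < n) (he : Even n) :
    ∃ (G : Type) (_ : Group G) (_ : Finite G) (H : Subgroup G) (e : Set.Ici H ≃ LF n),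
      ∀ r s, r ≤ s ↔ (e r).le (e s) := by
  haveI : Fact (Nat.Prime 2) := ⟨Nat.prime_two⟩
  let F := GaloisField 2 n
  have hn : Nat.card F = 2 ^ n := GaloisField.card 2 n h0.ne'
  obtain ⟨w, -, ho⟩ := ex_ord (F := F) (m := 3)
    (hn ▸ Nat.pow_sub_one_dvd_pow_sub_one 2 he.two_dvd)
  have hw : w * w + w + 1 = 0 := by
    have h1 : w - 1 ≠ 0 := fun e => absurd ((ho 1).1 (by rw [pow_one, sub_eq_zero.1 e])) (by decide)
    apply mul_left_cancel₀ h1
    linear_combination (ho 3).2 dvd_rfl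
  let H : Subgroup (G F) := Subgroup.closure {tv (1, 0), tv (0, 1)}
  have hH : ∀ S, H ≤ S ↔ tv (1, 0) ∈ S ∧ tv (0, 1) ∈ S := fun S => by
    simp [H, Set.insert_subset_iff]
  let f : LF n → Set.Ici H := fun x => ⟨stab (WF w x), (hH _).2
    ⟨(tv_stab_iff hw x _).2 (WF_e1 x), (tv_stab_iff hw x _).2 (WF_e2 hw x)⟩⟩
  have hf : ∀ x y, f x ≤ f y ↔ x.le y := fun x y => by
    rw [← WF_le hw hn]
    refine ⟨fun h v hv => (tv_stab_iff hw y v).1 (h ((tv_stab_iff hw x v).2 hv)), fun h => ?_⟩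
    exact le_of_tv ((hH _).1 (f x).2).1 ((hH _).1 (f x).2).2 fun v hv =>
      (tv_stab_iff hw y v).2 (h v ((tv_stab_iff hw x v).1 hv))
  have hb : Function.Bijective f := by
    refine ⟨fun x y h => le_antisymm' ((hf _ _).1 h.le) ((hf _ _).1 h.ge), fun S => ?_⟩
    obtain ⟨h1, h2⟩ := (hH _).1 S.2
    obtain ⟨x, hx⟩ := classify hw hn h1 h2
    refine ⟨x, Subtype.ext (le_antisymm ?_ ?_)⟩
    · exact le_of_tv ((hH _).1 (f x).2).1 ((hH _).1 (f x).2).2 fun v hv =>
        (hx v).2 ((tv_stab_iff hw x v).1 hv)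
    · exact le_of_tv h1 h2 fun v hv => (tv_stab_iff hw x v).2 ((hx v).1 hv)
  refine ⟨G F, inferInstance, inferInstance, H, (Equiv.ofBijective f hb).symm, fun r s => ?_⟩
  rw [← hf]
  simp [Equiv.ofBijective_apply_symm_apply]

end Vale.Agent.P183.Fam
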