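import Vale.Agent.P183.Tab

/-! The field with 64 elements, and transvections in its special linear group. -/

namespace Vale.Agent.P183

open Matrix

theorem mu_lt (a b : ℕ) : mu a b < 64 := Nat.mod_lt _ (by decide)

theorem xor_lt {a b : ℕ} (ha : a < 64) (hb : b < 64) : Nat.xor a b < 64 :=
  Nat.xor_lt_two_pow (n := 6) ha hb

@[ext] structure K where
  v : ℕ
  lt : v < 64

instance : Add K := ⟨fun a b => ⟨Nat.xor a.v b.v, xor_lt a.lt b.lt⟩⟩
instance : Mul K := ⟨fun a b => ⟨mu a.v b.v, mu_lt _ _⟩⟩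
instance : Neg K := ⟨fun a => a⟩
instance : Zero K := ⟨⟨0, by decide⟩⟩
instance : One K := ⟨⟨1, by decide⟩⟩

instance : CommRing K := CommRing.ofMinimalAxioms
  (fun a b c => K.ext (Nat.xor_assoc a.v b.v c.v))
  (fun a => K.ext (Nat.zero_xor a.v))
  (fun a => K.ext (Nat.xor_self a.v))
  (fun a b c => K.ext (Nat.eq_of_beq_eq_true
    (al_spec (al_spec (al_spec ck_assoc _ a.lt) _ b.lt) _ c.lt)))
  (fun a b => K.ext (Nat.eq_of_beq_eq_true
    (al_spec (Bool.and_eq_true_iff.1 (al_spec ck_comm _ a.lt)).2 _ b.lt)))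
  (fun a => K.ext (Nat.eq_of_beq_eq_true (Bool.and_eq_true_iff.1 (al_spec ck_comm _ a.lt)).1))
  (fun a b c => K.ext (Nat.eq_of_beq_eq_true
    (al_spec (al_spec (al_spec ck_dist _ a.lt) _ b.lt) _ c.lt)))

instance : Finite K :=
  Finite.of_injective (fun a : K => (⟨a.v, a.lt⟩ : Fin 64)) fun _ _ h => K.ext (congrArg Fin.val h)

theorem K_two : (2 : K) = 0 := by
  rw [← one_add_one_eq_two]
  rfl

abbrev G : Type := Matrix.SpecialLinearGroup (Fin 2) K

instance : Finite G := Subtype.finite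

def act (x : G) (p : K × K) : K × K :=
  (x 0 0 * p.1 + x 0 1 * p.2, x 1 0 * p.1 + x 1 1 * p.2)

theorem act_mul (x y : G) (p : K × K) : act (x * y) p = act x (act y p) := by
  have h : ∀ i j, (x * y) i j = x i 0 * y 0 j + x i 1 * y 1 j := fun i j => by
    change (x.1 * y.1) i j = _
    rw [Matrix.mul_apply, Fin.sum_univ_two]
  simp only [act, h]
  ext1 <;> simp only <;> ring

theorem act_one (p : K × K) : act 1 p = p := by
  simp [act]

theorem act_ext {x y : G} (h1 : act x (1, 0) = act y (1, 0)) (h2 : act x (0, 1) = act y (0, 1)) :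
    x = y := by
  simp only [act, mul_one, mul_zero, add_zero, zero_add, Prod.mk.injEq] at h1 h2
  ext1 i j
  fin_cases i <;> fin_cases j
  exacts [h1.1, h2.1, h1.2, h2.2]

theorem G_det (x : G) : x 0 0 * x 1 1 - x 0 1 * x 1 0 = 1 := by
  rw [← Matrix.det_fin_two]
  exact x.2

/-- the transvection of a vector -/
def tv (v : K × K) : G :=
  ⟨!![1 + v.1 * v.2, v.1 * v.1; v.2 * v.2, 1 + v.1 * v.2], by
    rw [Matrix.det_fin_two_of]
    linear_combination (v.1 * v.2) * K_two⟩

theorem act_tv (v y : K × K) : act (tv v) y =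
    (y.1 + (v.1 * y.2 + v.2 * y.1) * v.1, y.2 + (v.1 * y.2 + v.2 * y.1) * v.2) := by
  simp only [act, tv, of_apply, cons_val', cons_val_zero, cons_val_one, cons_val_fin_one]
  ext1 <;> simp only <;> ring

theorem tv_conj (x : G) (v : K × K) : x * tv v = tv (act x v) * x := by
  have h : ∀ y, act (x * tv v) y = act (tv (act x v) * x) y := fun y => by
    have e : (act x v).1 * (act x y).2 + (act x v).2 * (act x y).1 = v.1 * y.2 + v.2 * y.1 := by
      simp only [act]
      linear_combination (v.1 * y.2 + v.2 * y.1) * G_det x + ((v.1 * y.2 + v.2 * y.1) *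
        (x 0 1 * x 1 0) + v.1 * y.1 * (x 0 0 * x 1 0) + v.2 * y.2 * (x 0 1 * x 1 1)) * K_two
    rw [act_mul, act_mul, act_tv, act_tv, e]
    simp only [act]
    ext1 <;> simp only <;> ring
  exact act_ext (h _) (h _)

theorem tv_tv (v y : K × K) : act (tv v) (act (tv v) y) = y := by
  simp only [act_tv]
  ext1 <;> simp only
  · linear_combination ((v.1 * y.2 + v.2 * y.1) * v.1 * (1 + v.1 * v.2)) * K_two
  · linear_combination ((v.1 * y.2 + v.2 * y.1) * v.2 * (1 + v.1 * v.2)) * K_two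

theorem tv_mem {S : Subgroup G} {x : G} {v : K × K} (hx : x ∈ S) (hv : tv v ∈ S) :
    tv (act x v) ∈ S := by
  have : tv (act x v) = x * tv v * x⁻¹ := by rw [tv_conj, mul_inv_cancel_right]
  rw [this]
  exact mul_mem (mul_mem hx hv) (inv_mem hx)

def dec (n : ℕ) : K × K := (⟨hi n, Nat.mod_lt _ (by decide)⟩, ⟨lo n, Nat.mod_lt _ (by decide)⟩)

def enc (p : K × K) : ℕ := pk p.1.v p.2.v

theorem enc_lt (p : K × K) : enc p < 4096 := by
  have h1 := p.1.lt
  have h2 := p.2.lt
  change 64 * p.1.v + p.2.v < 4096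
  omega

theorem dec_enc (p : K × K) : dec (enc p) = p := by
  have h1 := p.1.lt
  have h2 := p.2.lt
  refine Prod.ext (K.ext ?_) (K.ext ?_)
  · change (64 * p.1.v + p.2.v) / 64 % 64 = p.1.v
    omega
  · change (64 * p.1.v + p.2.v) % 64 = p.2.v
    omega

theorem enc_dec {n : ℕ} (h : n < 4096) : enc (dec n) = n := by
  change 64 * (n / 64 % 64) + n % 64 = n
  omega

theorem enc_act (n m : ℕ) : enc (act (tv (dec n)) (dec m)) = sv n m := by
  rw [act_tv]
  rfl

theorem dec_sv (n m : ℕ) : dec (sv n m) = act (tv (dec n)) (dec m) := by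
  rw [← enc_act, dec_enc]

theorem sv_enc (v y : K × K) : sv (enc v) (enc y) = enc (act (tv v) y) := by
  rw [← enc_act, dec_enc, dec_enc]

theorem sv_lt (n m : ℕ) : sv n m < 4096 := enc_act n m ▸ enc_lt _

end Vale.Agent.P183
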